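import Mathlib
import Vale.Agent.P065.Unordered
import Vale.Agent.P065.KSet

/-!
P065: halving lines and `k`-sets versus convex sets and convex position, all results in one
statement.
-/

namespace Vale.Agent.Results.P065.AllConvexTools

open Vale.Agent.P065

open Classical in
/-- Let `P` be a finite planar point set with no three collinear points.

(A) For every convex subset `K` of the plane, if `L` is the number of halving edges of `P` with
exactly one endpoint in `K` and `T` the number of halving edges with both endpoints outside `K`
whose segment meets `K`, then `L + 2 T` is at most the number of points of `P` outside `K`, with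
equality as soon as `|P|` is even and `K` contains at least half of the points of `P`.

(B) If every subset of `P` in convex position has at most `g` points, then for every
`1 ≤ k < |P|` the number of `k`-sets of `P` is at most `2 min(k, |P| - k) (g - 1)`, and the number
`h(P)` of halving lines satisfies `2 h(P) ≤ |P| (g - 1)`. -/
theorem result (P : Finset (ℝ × ℝ)) (hP : NoThreeCollinear P) :
    (∀ K : Set (ℝ × ℝ), Convex ℝ K →
      (leavingPairs P K).card + 2 * (throughPairs P K).card ≤ (P.filter (fun z => z ∉ K)).card ∧
      (Even P.card → P.card ≤ 2 * (P.filter (fun z => z ∈ K)).card →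
        (leavingPairs P K).card + 2 * (throughPairs P K).card
          = (P.filter (fun z => z ∉ K)).card)) ∧
    (∀ g : ℕ,
      (∀ S : Finset (ℝ × ℝ), S ⊆ P →
        ConvexIndependent ℝ (Subtype.val : ↥(S : Set (ℝ × ℝ)) → ℝ × ℝ) → S.card ≤ g) →
      (∀ k : ℕ, 1 ≤ k → k < P.card → (kSets P k).card ≤ 2 * min k (P.card - k) * (g - 1)) ∧
        2 * (halvingPairs P).card ≤ P.card * (g - 1)) :=
  ⟨fun _ hK => convex_lovasz hP hK,
   fun g hg => ⟨fun k hk hkn => card_kSets_le_min P hP g hg k hk hkn,
     two_mul_card_halvingPairs_le P hP g hg⟩⟩

end Vale.Agent.Results.P065.AllConvexTools
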