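import Mathlib
import Vale.Agent.P065.Unordered

/-!
P065: a Lovasz type lemma for halving lines and arbitrary convex sets.
-/

namespace Vale.Agent.Results.P065.ConvexLovasz

open Vale.Agent.P065

open Classical in
/-- Let `P` be a finite planar point set with no three collinear points and let `K` be an arbitrary
convex subset of the plane.  Let `L` be the number of halving edges of `P` with exactly one endpoint
in `K` and let `T` be the number of halving edges with both endpoints outside `K` whose segment
meets `K`.  Then `L + 2 T` is at most the number of points of `P` outside `K`, and equality holds
as soon as `|P|` is even and `K` contains at least half of the points of `P`. -/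
theorem result (P : Finset (ℝ × ℝ)) (hP : NoThreeCollinear P) (K : Set (ℝ × ℝ))
    (hK : Convex ℝ K) :
    (leavingPairs P K).card + 2 * (throughPairs P K).card ≤ (P.filter (fun z => z ∉ K)).card ∧
    (Even P.card → P.card ≤ 2 * (P.filter (fun z => z ∈ K)).card →
      (leavingPairs P K).card + 2 * (throughPairs P K).card
        = (P.filter (fun z => z ∉ K)).card) :=
  convex_lovasz hP hK

end Vale.Agent.Results.P065.ConvexLovasz
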