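import Mathlib
import Vale.Agent.P065.Main

/-!
P065: halving lines versus the largest subset in convex position.
-/

namespace Vale.Agent.Results.P065.ConvexSubsetBound

open Vale.Agent.P065

/-- If `P` is a finite planar point set with no three collinear points and every subset of `P`
in convex position has at most `g` points, then the number `h(P)` of halving lines satisfies
`2 h(P) ≤ |P| (g - 1)`. -/
theorem result (P : Finset (ℝ × ℝ)) (hP : NoThreeCollinear P) (g : ℕ)
    (hg : ∀ S : Finset (ℝ × ℝ), S ⊆ P →
      ConvexIndependent ℝ (Subtype.val : ↥(S : Set (ℝ × ℝ)) → ℝ × ℝ) → S.card ≤ g) :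
    2 * (halvingPairs P).card ≤ P.card * (g - 1) :=
  two_mul_card_halvingPairs_le P hP g hg

end Vale.Agent.Results.P065.ConvexSubsetBound
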