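import Mathlib
import Vale.Agent.P065.KSet

/-!
P065: `k`-sets and halving lines versus the largest subset in convex position.
-/

namespace Vale.Agent.Results.P065.KSetsConvexSubset

open Vale.Agent.P065

/-- Let `P` be a finite planar point set with no three collinear points such that every subset of
`P` in convex position has at most `g` points.  Then for every `1 ≤ k < |P|` the number of
`k`-sets of `P` is at most `2 min(k, |P| - k) (g - 1)`, and the number `h(P)` of halving lines
satisfies `2 h(P) ≤ |P| (g - 1)`. -/
theorem result (P : Finset (ℝ × ℝ)) (hP : NoThreeCollinear P) (g : ℕ)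
    (hg : ∀ S : Finset (ℝ × ℝ), S ⊆ P →
      ConvexIndependent ℝ (Subtype.val : ↥(S : Set (ℝ × ℝ)) → ℝ × ℝ) → S.card ≤ g) :
    (∀ k : ℕ, 1 ≤ k → k < P.card → (kSets P k).card ≤ 2 * min k (P.card - k) * (g - 1)) ∧
      2 * (halvingPairs P).card ≤ P.card * (g - 1) :=
  ⟨fun k hk hkn => card_kSets_le_min P hP g hg k hk hkn, two_mul_card_halvingPairs_le P hP g hg⟩

end Vale.Agent.Results.P065.KSetsConvexSubset
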